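import Vale.Agent.P201.Tri
import Vale.Agent.P201.Reduce

open Vale.Agent.P201

universe u v w

/-- Necessary conditions for a counterexample `α * β = 0` to the zero-divisor conjecture over a
torsion-free group, valid for both factors. -/
theorem Vale.Agent.Results.P201.LeadingParts.result
    (G : Type u) [Group G] [DecidableEq G] (hG : ∀ g : G, IsOfFinOrder g → g = 1)
    (K : Type v) [Field K] (α β : MonoidAlgebra K G) (hα : α ≠ 0) (hβ : β ≠ 0)
    (h : α * β = 0) :
    (∀ γ : G →₀ K, γ = α.coeff ∨ γ = β.coeff →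
      -- every valuation: at least three leading terms, and the group generated by their
      -- quotients does not have unique products
      (∀ (Γ₀ : Type w) [LinearOrderedCommGroupWithZero Γ₀] (v : Valuation K Γ₀),
        3 ≤ (Lead v γ).card ∧ ¬ UniqueProds (LeadGroup v γ)) ∧
      -- every absolute value: no coefficient dominates the others
      (∀ (v : AbsoluteValue K ℝ) (x : G), v (γ x) < ∑ y ∈ γ.support.erase x, v (γ y)) ∧
      -- integer coefficients: for every prime, all or at most all but three are divisible by it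
      (CharZero K → ∀ c : G →₀ ℤ, (∀ g, γ g = (c g : K)) → ∀ p : ℕ, p.Prime →
        (∃ g, ¬ (p : ℤ) ∣ c g) → 3 ≤ {g ∈ c.support | ¬ (p : ℤ) ∣ c g}.card) ∧
      -- trinomials
      (γ.support.card = 3 → ∀ x ∈ γ.support, ∀ y ∈ γ.support,
        IsIntegral ℤ (γ x / γ y) ∧
        (CharZero K → ∀ q : ℚ, γ x = (q : K) * γ y → q = 1 ∨ q = -1) ∧
        (∀ p : ℕ, p.Prime → CharP K p → ∃ n : ℕ, 0 < n ∧ γ x ^ n = γ y ^ n))) ∧
    -- reduction to finite fields of one characteristic
    (∀ p : ℕ, p.Prime → CharZero K ∨ CharP K p →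
      ∃ (F : Type v) (_ : Field F), Finite F ∧ CharP F p ∧
        ∃ α' β' : MonoidAlgebra F G, α' ≠ 0 ∧ β' ≠ 0 ∧ α' * β' = 0 ∧
          α'.coeff.support ⊆ α.coeff.support ∧ β'.coeff.support ⊆ β.coeff.support) := by
  have hαc : α.coeff ≠ 0 := fun hc => hα (by ext g; simp [hc])
  have hβc : β.coeff ≠ 0 := fun hc => hβ (by ext g; simp [hc])
  refine ⟨?_, fun p hp hK => to_finite_all p hp hK hα hβ h⟩
  intro γ hγ
  obtain ⟨δ, hγ0, hδ0, hann⟩ : ∃ δ : G →₀ K, γ ≠ 0 ∧ δ ≠ 0 ∧ Ann γ δ := by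
    rcases hγ with rfl | rfl
    · exact ⟨_, hαc, hβc, ann_left h⟩
    · exact ⟨_, hβc, hαc, ann_right h⟩
  refine ⟨?_, ?_, ?_, ?_⟩
  · intro Γ₀ _ v
    exact ⟨three hG hγ0 hδ0 hann v, not_up hγ0 hδ0 hann v⟩
  · intro v x
    exact arch hG hδ0 hann v hγ0 x
  · intro hK c hc p hp hex
    exact int_coeff hG hγ0 hδ0 hann c hc p hp hex
  · intro h3 x hx y hy
    refine ⟨tri_integral hG hγ0 hδ0 hann h3 hy, ?_, ?_⟩
    · intro hK q hq
      exact tri_rat hG hγ0 hδ0 hann h3 hx hy q hq
    · intro p hp hK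
      exact tri_char p hp hG hγ0 hδ0 hann h3 hx hy
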